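import Vale.Agent.P084.Main

/-! Tingley's problem when the domain is an inner product space: every surjective isometry from
the unit sphere of a real inner product space onto the unit sphere of an arbitrary real normed
space is the restriction of a surjective linear isometry. -/

namespace Vale.Agent.Results.P084.HilbertSpaces

open Vale.Agent.P084

theorem result {H Y : Type*} [NormedAddCommGroup H] [InnerProductSpace ℝ H]
    [NormedAddCommGroup Y] [NormedSpace ℝ Y]
    (f : Metric.sphere (0 : H) 1 → Metric.sphere (0 : Y) 1) (hf : Isometry f)
    (hs : Function.Surjective f) :
    ∃ T : H ≃ₗᵢ[ℝ] Y, ∀ x : Metric.sphere (0 : H) 1, T (x : H) = (f x : Y) :=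
  glue main_unbundled f hf hs

end Vale.Agent.Results.P084.HilbertSpaces
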